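import Vale.Agent.Lib.P328.BP.Top
import Vale.Agent.Lib.P328.BP.Degenerate
import Vale.Agent.Lib.P328.BP.Halve

namespace Vale.Agent.Results.P328.AllMarginsBinary

open Vale.Agent.Lib.P328.CT Vale.Agent.Lib.P328.AM Vale.Agent.Lib.P328.BP

/-- Arbitrary margins: row sums `r` and column sums `c`, with `m ≥ 2` rows and `n ≥ 2`
columns, and no other hypothesis.  `Ω(r,c) = tables r c` is the set of contingency tables
(matrices of natural numbers with row sums `r` and column sums `c`), `N = ∑ i, r i` is the sum
of the entries of a table and `b = Nat.size N` is the number of binary digits of `N`.  One step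
of the 2 × 2 heat bath on `Ω(r,c)` picks a pair of rows and a pair of columns uniformly at
random and replaces the 2 × 2 subtable by a uniformly random 2 × 2 table of natural numbers
with the same row and column sums; `heatKernel` is its transition matrix on the state space
`Tab r c` of all tables.  With `K = 3500 * (max m n)^15 * b^2`:
(1) Poincare inequality: for every function `f` of the table, the sum over `Ω(r,c)` of the
squared deviations of `f` from its mean is at most `K` times the sum, over all pairs `q` of
rows, all pairs `p` of columns and all tables `M`, of the squared deviation of `f M` from the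
average `boxAvg r c q p f M` of `f` over the tables that agree with `M` outside the 2 × 2
subtable;
(2) from every starting table `x`, the distribution after `t` steps is within
`sqrt |Ω(r,c)| * (1 - 1 / (K (m choose 2) (n choose 2))) ^ t` of the uniform distribution in
`ℓ¹` distance (twice the total variation distance);
(3) for every `ε > 0`, after
`t ≥ K (m choose 2) (n choose 2) ((m / 2) ∑ j, log (c j + 1) + log (1 / ε))` steps that
distance is at most `ε`.  The number of steps in (3) is polynomial in `m`, `n`, the number of
binary digits of the margins and `log (1 / ε)`. -/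
theorem result {R C : Type*} [Fintype R] [Fintype C] (r : R → ℕ) (c : C → ℕ)
    (hR : 2 ≤ Fintype.card R) (hC : 2 ≤ Fintype.card C) :
    (∀ f : (R → C → ℕ) → ℝ,
      ∑ M ∈ tables r c, (f M - (∑ N ∈ tables r c, f N) / ((tables r c).card : ℝ)) ^ 2
        ≤ 3500 * ((max (Fintype.card R) (Fintype.card C) : ℕ) : ℝ) ^ 15
            * ((Nat.size (∑ i, r i) : ℕ) : ℝ) ^ 2
          * ∑ q ∈ (Finset.univ : Finset R).powersetCard 2,
              ∑ p ∈ (Finset.univ : Finset C).powersetCard 2,
                ∑ M ∈ tables r c, (f M - boxAvg r c q p f M) ^ 2) ∧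
    (∀ (x : Tab r c) (t : ℕ),
      ∑ y, |(heatKernel (((Finset.univ : Finset R).powersetCard 2) ×ˢ
              ((Finset.univ : Finset C).powersetCard 2))
            (fun qp => RelBox (r := r) (c := c) qp.1 qp.2) ^ t) x y
            - 1 / (Fintype.card (Tab r c) : ℝ)|
        ≤ Real.sqrt (Fintype.card (Tab r c) : ℝ)
          * (1 - 1 / (3500 * ((max (Fintype.card R) (Fintype.card C) : ℕ) : ℝ) ^ 15
              * ((Nat.size (∑ i, r i) : ℕ) : ℝ) ^ 2
              * (((Fintype.card R).choose 2 : ℝ) * ((Fintype.card C).choose 2 : ℝ)))) ^ t) ∧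
    (∀ (ε : ℝ), 0 < ε → ∀ t : ℕ,
      3500 * ((max (Fintype.card R) (Fintype.card C) : ℕ) : ℝ) ^ 15
          * ((Nat.size (∑ i, r i) : ℕ) : ℝ) ^ 2
          * (((Fintype.card R).choose 2 : ℝ) * ((Fintype.card C).choose 2 : ℝ))
          * ((Fintype.card R : ℝ) / 2 * ∑ j, Real.log ((c j : ℝ) + 1) + Real.log (1 / ε)) ≤ t →
      ∀ x : Tab r c,
        ∑ y, |(heatKernel (((Finset.univ : Finset R).powersetCard 2) ×ˢ
              ((Finset.univ : Finset C).powersetCard 2))
            (fun qp => RelBox (r := r) (c := c) qp.1 qp.2) ^ t) x y
            - 1 / (Fintype.card (Tab r c) : ℝ)|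
          ≤ ε) :=
  ⟨fun f => pcbox_poly_two halveStatement r c hR f,
    fun x t => binary_mixing hR hC (pcbox_poly_two halveStatement r c hR) x t,
    fun ε hε t ht x =>
      binary_mixing_time hR hC (pcbox_poly_two halveStatement r c hR) ε hε t ht x⟩

end Vale.Agent.Results.P328.AllMarginsBinary
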