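import Vale.Agent.Lib.P328.BP.Top
import Vale.Agent.Lib.P328.BP.Halve
import Vale.Agent.Lib.P328.BP.InputLength
import Vale.Agent.Lib.P328.BP.CountFinal

namespace Vale.Agent.Results.P328.AllMarginsBinaryCount

open scoped Classical
open Vale.Agent.Lib.P328.CT Vale.Agent.Lib.P328.AM Vale.Agent.Lib.P328.BP

/-- Polynomial mixing time of the 2 × 2 heat bath on contingency tables for all margins, and
the reduction of counting to sampling, in terms of the binary input length.  `r`, `c` are
arbitrary row sums and column sums, with `m ≥ 2` rows and `n ≥ 2` columns; there is no other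
hypothesis.  `tables r c` is the set `Ω(r,c)` of all matrices of natural numbers with row sums
`r` and column sums `c`, and `Tab r c` is the same set as a type.  One step of the 2 × 2 heat
bath picks a pair of rows and a pair of columns uniformly at random and replaces the 2 × 2
subtable by a uniformly random 2 × 2 table of natural numbers with the same row and column
sums; `heatKernel` is its transition matrix on `Tab r c`.  `L` is the input length
`m + n + ∑ i, log₂ (r i + 2) + ∑ j, log₂ (c j + 2)`.
(a) For every `ε > 0` and every `t ≥ 875 L^21 (L^2 + log (1 / ε))`, the distribution after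
`t` steps from every starting table `x` is within `ε` of the uniform distribution on `Ω(r,c)`
in `ℓ¹` distance (twice the total variation distance).
(b) If `Ω(r,c)` is nonempty, there is a chain of `s ≤ 2 m n L` instances
`(ρ 0, γ 0) = (r, c)`, `(ρ 1, γ 1)`, ..., `(ρ s, γ s)` on the same rows and columns such that
for every `t < s`: the instance `(ρ (t + 1), γ (t + 1))` arises from `(ρ t, γ t)` by subtracting
a number `k t ≥ 1` from the row sum `i t` and from the column sum `j t`; its tables are exactly
as many as the tables `T` of `(ρ t, γ t)` with `k t ≤ T (i t) (j t)`; and these are at least a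
fraction `1 / (2 m n)` of all tables of `(ρ t, γ t)`.  The number of tables `|Ω(r,c)|` is the
product over `t < s` of the inverse fractions
`|Ω(ρ t, γ t)| / |{T ∈ Ω(ρ t, γ t) : k t ≤ T (i t) (j t)}|`.  Moreover, for every `t ≤ s` the
2 × 2 heat bath of the instance `(ρ t, γ t)` is within `ε` of the uniform distribution on
`Ω(ρ t, γ t)` after `u ≥ 875 L^21 (L^2 + log (1 / ε))` steps, with the input length `L` of
`(r, c)`. -/
theorem result {R C : Type*} [Fintype R] [Fintype C] (r : R → ℕ) (c : C → ℕ)
    (hR : 2 ≤ Fintype.card R) (hC : 2 ≤ Fintype.card C) (L : ℝ)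
    (hL : L = (Fintype.card R : ℝ) + (Fintype.card C : ℝ)
      + ∑ i, Real.logb 2 ((r i : ℝ) + 2) + ∑ j, Real.logb 2 ((c j : ℝ) + 2)) :
    (∀ (ε : ℝ), 0 < ε → ∀ t : ℕ,
      875 * L ^ 21 * (L ^ 2 + Real.log (1 / ε)) ≤ t →
      ∀ x : Tab r c,
        ∑ y, |(heatKernel (((Finset.univ : Finset R).powersetCard 2) ×ˢ
              ((Finset.univ : Finset C).powersetCard 2))
            (fun qp => RelBox (r := r) (c := c) qp.1 qp.2) ^ t) x y
            - 1 / (Fintype.card (Tab r c) : ℝ)|
          ≤ ε) ∧
    ((tables r c).Nonempty →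
      ∃ (s : ℕ) (ρ : ℕ → R → ℕ) (γ : ℕ → C → ℕ) (i : ℕ → R) (j : ℕ → C) (k : ℕ → ℕ),
        (s : ℝ) ≤ 2 * ((Fintype.card R : ℝ) * (Fintype.card C : ℝ)) * L ∧
        ρ 0 = r ∧ γ 0 = c ∧
        (∀ t, t < s → 1 ≤ k t ∧ k t ≤ ρ t (i t) ∧ k t ≤ γ t (j t) ∧
          ρ (t + 1) = Function.update (ρ t) (i t) (ρ t (i t) - k t) ∧
          γ (t + 1) = Function.update (γ t) (j t) (γ t (j t) - k t) ∧
          (tables (ρ (t + 1)) (γ (t + 1))).card
            = ((tables (ρ t) (γ t)).filter (fun T => k t ≤ T (i t) (j t))).card ∧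
          (tables (ρ t) (γ t)).card ≤ 2 * (Fintype.card R * Fintype.card C)
            * ((tables (ρ t) (γ t)).filter (fun T => k t ≤ T (i t) (j t))).card) ∧
        ((tables r c).card : ℝ) = ∏ t ∈ Finset.range s, ((tables (ρ t) (γ t)).card : ℝ)
            / (((tables (ρ t) (γ t)).filter (fun T => k t ≤ T (i t) (j t))).card : ℝ) ∧
        (∀ t, t ≤ s → ∀ (ε : ℝ), 0 < ε → ∀ u : ℕ,
          875 * L ^ 21 * (L ^ 2 + Real.log (1 / ε)) ≤ u →
          ∀ x : Tab (ρ t) (γ t),
            ∑ y, |(heatKernel (((Finset.univ : Finset R).powersetCard 2) ×ˢ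
                  ((Finset.univ : Finset C).powersetCard 2))
                (fun qp => RelBox (r := ρ t) (c := γ t) qp.1 qp.2) ^ u) x y
                - 1 / (Fintype.card (Tab (ρ t) (γ t)) : ℝ)|
              ≤ ε)) := by
  have hL' : L = inLen r c := hL
  subst hL'
  exact ⟨fun ε hε t ht x => pcbox_time_input_length (pcbox_poly halveStatement R C r c)
      (bp_const_le_inLen r c hR hC) hR hC ε hε t ht x,
    fun hne => count_chain r c hR hC hne⟩

end Vale.Agent.Results.P328.AllMarginsBinaryCount
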