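import Vale.Agent.Lib.P328.BP.Top
import Vale.Agent.Lib.P328.BP.Halve
import Vale.Agent.Lib.P328.BP.InputLength
import Vale.Agent.Lib.P328.CT.BoxClass

namespace Vale.Agent.Results.P328.AllMarginsBinaryTime

open scoped Classical
open Vale.Agent.Lib.P328.CT Vale.Agent.Lib.P328.AM Vale.Agent.Lib.P328.BP

/-- Polynomial mixing time of the 2 × 2 heat bath on contingency tables, for all margins, in
terms of the binary input length.  `r`, `c` are arbitrary row sums and column sums, with
`m ≥ 2` rows and `n ≥ 2` columns; there is no other hypothesis.  `tables r c` is the set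
`Ω(r,c)` of all matrices of natural numbers with row sums `r` and column sums `c`, and
`Tab r c` is the same set as a type.  One step of the 2 × 2 heat bath picks a pair of rows and
a pair of columns uniformly at random and replaces the 2 × 2 subtable by a uniformly random
2 × 2 table of natural numbers with the same row and column sums; `heatKernel` is its
transition matrix on `Tab r c`.  `L` is the input length
`m + n + ∑ i, log₂ (r i + 2) + ∑ j, log₂ (c j + 2)`.
(a) For every `ε > 0` and every `t ≥ 875 L^21 (L^2 + log (1 / ε))`, the distribution after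
`t` steps from every starting table `x` is within `ε` of the uniform distribution on `Ω(r,c)`
in `ℓ¹` distance (twice the total variation distance).
(b) One step is the draw of one uniform integer from an explicit interval: for rows `a ≠ b`,
columns `j ≠ l` and a table `x`, a table that agrees with `x` outside the 2 × 2 subtable is
determined by its entry in row `a` and column `j`, and these entries are exactly the integers
from `x a j - x b l` (truncated at zero) to `x a j + min (x a l) (x b j)`. -/
theorem result {R C : Type*} [Fintype R] [Fintype C] (r : R → ℕ) (c : C → ℕ)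
    (hR : 2 ≤ Fintype.card R) (hC : 2 ≤ Fintype.card C) (L : ℝ)
    (hL : L = (Fintype.card R : ℝ) + (Fintype.card C : ℝ)
      + ∑ i, Real.logb 2 ((r i : ℝ) + 2) + ∑ j, Real.logb 2 ((c j : ℝ) + 2)) :
    (∀ (ε : ℝ), 0 < ε → ∀ t : ℕ,
      875 * L ^ 21 * (L ^ 2 + Real.log (1 / ε)) ≤ t →
      ∀ x : Tab r c,
        ∑ y, |(heatKernel (((Finset.univ : Finset R).powersetCard 2) ×ˢ
              ((Finset.univ : Finset C).powersetCard 2))
            (fun qp => RelBox (r := r) (c := c) qp.1 qp.2) ^ t) x y
            - 1 / (Fintype.card (Tab r c) : ℝ)|
          ≤ ε) ∧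
    (∀ a b : R, a ≠ b → ∀ j l : C, j ≠ l → ∀ x : Tab r c,
      Set.InjOn (fun z : Tab r c => z.1 a j)
        ((Finset.univ.filter (fun z : Tab r c => RelBox {a, b} {j, l} x z) : Finset (Tab r c))
          : Set (Tab r c)) ∧
      (Finset.univ.filter (fun z : Tab r c => RelBox {a, b} {j, l} x z)).image
          (fun z : Tab r c => z.1 a j)
        = Finset.Icc (x.1 a j - x.1 b l) (x.1 a j + min (x.1 a l) (x.1 b j))) := by
  have hL' : L = inLen r c := hL
  subst hL'
  exact ⟨fun ε hε t ht x => pcbox_time_input_length (pcbox_poly halveStatement R C r c)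
      (bp_const_le_inLen r c hR hC) hR hC ε hε t ht x,
    fun a b hab j l hjl x => ⟨box_inj a b hab j l hjl x, box_image a b hab j l hjl x⟩⟩

end Vale.Agent.Results.P328.AllMarginsBinaryTime
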