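import Vale.Agent.Lib.P328.BP.Top
import Vale.Agent.Lib.P328.BP.Halve
import Vale.Agent.Lib.P328.BP.InputLength
import Vale.Agent.Lib.P328.BP.SamplerStep
import Vale.Agent.Lib.P328.BP.NWCorner

namespace Vale.Agent.Results.P328.AllMarginsSampler

open scoped Classical
open Vale.Agent.Lib.P328.CT Vale.Agent.Lib.P328.AM Vale.Agent.Lib.P328.BP

/-- An almost-uniform sampler for contingency tables with arbitrary margins, as a randomized
procedure.  `r` and `c` are arbitrary row sums (`m + 2` rows) and column sums (`n + 2`
columns) with the same total; `tables r c` is the set `Ω(r,c)` of all matrices of natural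
numbers with row sums `r` and column sums `c`, and `Tab r c` the same set as a type.
`nwTable r c` is the north-west corner table, `heatStep x` one step of the 2 × 2 heat bath
from the table `x` (draw a pair of rows and a pair of columns uniformly at random, then draw
uniformly at random a table that agrees with `x` outside the 2 × 2 subtable) and `heatRun t x`
the law of the table after `t` steps from `x`.  `L` is the input length
`(m + 2) + (n + 2) + ∑ i, log₂ (r i + 2) + ∑ j, log₂ (c j + 2)`.
(a) The north-west corner table is a table with the margins `r`, `c`.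
(b) From every starting table `x`, for every `ε > 0` and every
`t ≥ 875 L^21 (L^2 + log (1 / ε))`, the law of the table after `t` steps is within `ε` of the
uniform law on `Ω(r,c)` in total variation distance. -/
theorem result {m n : ℕ} (r : Fin (m + 2) → ℕ) (c : Fin (n + 2) → ℕ)
    (hrc : ∑ i, r i = ∑ j, c j) (L : ℝ)
    (hL : L = ((m + 2 : ℕ) : ℝ) + ((n + 2 : ℕ) : ℝ)
      + ∑ i, Real.logb 2 ((r i : ℝ) + 2) + ∑ j, Real.logb 2 ((c j : ℝ) + 2)) :
    nwTable r c ∈ tables r c ∧
    (∀ (x : Tab r c) (ε : ℝ), 0 < ε → ∀ t : ℕ,
      875 * L ^ 21 * (L ^ 2 + Real.log (1 / ε)) ≤ t →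
      1 / 2 * ∑ y, |(heatRun t x y).toReal - 1 / (Fintype.card (Tab r c) : ℝ)| ≤ ε) := by
  refine ⟨nwTable_mem_tables r c hrc, ?_⟩
  intro x ε hε t ht
  have hR : 2 ≤ Fintype.card (Fin (m + 2)) := by simp
  have hC : 2 ≤ Fintype.card (Fin (n + 2)) := by simp
  have hL' : L = inLen r c := by
    rw [hL]
    unfold inLen
    simp
  subst hL'
  have h := pcbox_time_input_length (pcbox_poly halveStatement (Fin (m + 2)) (Fin (n + 2)) r c)
    (bp_const_le_inLen r c hR hC) hR hC ε hε t ht x
  have e : ∑ y, |(heatRun t x y).toReal - 1 / (Fintype.card (Tab r c) : ℝ)|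
      = ∑ y, |(heatKernel (((Finset.univ : Finset (Fin (m + 2))).powersetCard 2) ×ˢ
            ((Finset.univ : Finset (Fin (n + 2))).powersetCard 2))
          (fun qp => RelBox (r := r) (c := c) qp.1 qp.2) ^ t) x y
          - 1 / (Fintype.card (Tab r c) : ℝ)| :=
    Finset.sum_congr rfl (fun y _ => by rw [heatRun_toReal])
  rw [e]
  exact half_le_of_le h (Finset.sum_nonneg (fun _ _ => abs_nonneg _))

end Vale.Agent.Results.P328.AllMarginsSampler
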